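import Vale.Agent.P088.R2.H338.I.Wt
import Vale.Agent.P088.R2.H551.V.Defs

/-!
# P088: weighted interior estimates for `∑ s_ij ∂_i ∂_j W + ∑ (∂_i W) b_i = F`
-/

open MeasureTheory Set Filter
open scoped ContDiff Matrix Topology

noncomputable section

namespace Vale.Agent.P088.R2.H338.I

open Vale.Agent.P088.LR Vale.Agent.P088.LR.U Vale.Agent.P088.LR.H158 Vale.Agent.P088.PJ
open Vale.Agent.P088.HY (Lv)
open Vale.Agent.P088.HY.S3 (Jl)

variable {n N : ℕ}

/-- Real and imaginary parts. -/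
def pr : Bool → (ℂ →L[ℝ] ℝ)
  | false => Complex.reCLM
  | true => Complex.imCLM

/-- The matrix of the multiplication. -/
def cf : Bool → Bool → (ℂ →L[ℝ] ℝ)
  | false, false => Complex.reCLM
  | false, true => -Complex.imCLM
  | true, false => Complex.imCLM
  | true, true => Complex.reCLM

theorem pr_norm (σ : Bool) : ‖pr σ‖ ≤ 1 := by
  cases σ
  · exact Complex.reCLM_norm.le
  · exact Complex.imCLM_norm.le

theorem cf_norm (σ τ : Bool) : ‖cf σ τ‖ ≤ 1 := by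
  cases σ <;> cases τ
  · exact Complex.reCLM_norm.le
  · show ‖-Complex.imCLM‖ ≤ 1
    rw [norm_neg]; exact Complex.imCLM_norm.le
  · exact Complex.imCLM_norm.le
  · exact Complex.reCLM_norm.le

theorem pr_mul (σ : Bool) (u v : ℂ) : pr σ (u * v) = ∑ τ, cf σ τ v * pr τ u := by
  cases σ <;> simp [pr, cf] <;> ring

theorem pr_real (σ : Bool) (r : ℝ) (u : ℂ) : pr σ ((r : ℂ) * u) = r * pr σ u := by
  cases σ <;> simp [pr]

theorem pr_sq (u : ℂ) : ∑ σ, pr σ u ^ 2 = ‖u‖ ^ 2 := by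
  rw [Fintype.sum_bool, Complex.sq_norm, Complex.normSq_apply]
  simp only [pr, Complex.reCLM_apply, Complex.imCLM_apply]
  ring

section clm

variable {E : Type*} [NormedAddCommGroup E] [NormedSpace ℝ E]

theorem clm_ifd {F G : Type*} [NormedAddCommGroup F] [NormedSpace ℝ F] [NormedAddCommGroup G]
    [NormedSpace ℝ G] (T : F →L[ℝ] G) (hT : ‖T‖ ≤ 1) {f : E → F} {x : E}
    (hf : ContDiffAt ℝ ∞ f x) (l : ℕ) :
    ‖iteratedFDeriv ℝ l (fun y => T (f y)) x‖ ≤ ‖iteratedFDeriv ℝ l f x‖ := by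
  have e : (fun y => T (f y)) = T ∘ f := rfl
  rw [e, T.iteratedFDeriv_comp_left hf (by exact_mod_cast le_top)]
  refine (T.norm_compContinuousMultilinearMap_le _).trans ?_
  exact (mul_le_mul_of_nonneg_right hT (norm_nonneg _)).trans (by rw [one_mul])

theorem Jl_clm (T : ℂ →L[ℝ] ℝ) (hT : ‖T‖ ≤ 1) {O : Set E} (hO : IsOpen O) {k : ℕ} {a : E → ℝ}
    {f : E → ℂ} (hf : ContDiffOn ℝ ∞ f O)
    (h : ∀ l ≤ k, ∀ x ∈ O, ‖iteratedFDeriv ℝ l f x‖ ≤ a x) : Jl O k a (fun x => T (f x)) :=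
  ⟨T.contDiff.comp_contDiffOn hf, fun l hl x hx =>
    (clm_ifd T hT (hf.contDiffAt (hO.mem_nhds hx)) l).trans (h l hl x hx)⟩

/-- The jets of a complex function from those of the real and imaginary parts. -/
theorem ifd_le_pr {f : E → ℂ} {x : E} (hf : ContDiffAt ℝ ∞ f x) (l : ℕ) :
    ‖iteratedFDeriv ℝ l f x‖ ≤ ∑ σ, ‖iteratedFDeriv ℝ l (fun y => pr σ (f y)) x‖ := by
  have h0 : ContDiffAt ℝ ∞ (fun y => pr false (f y)) x :=
    (pr false).contDiff.contDiffAt.comp x hf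
  have h1 : ContDiffAt ℝ ∞ (fun y => pr true (f y)) x := (pr true).contDiff.contDiffAt.comp x hf
  have n0 : ‖Complex.ofRealCLM‖ ≤ 1 := Complex.ofRealCLM_norm.le
  have n1 : ‖(Complex.I • Complex.ofRealCLM : ℝ →L[ℝ] ℂ)‖ ≤ 1 := by
    rw [norm_smul, Complex.norm_I, one_mul]; exact n0
  have e : f = (fun y => Complex.ofRealCLM (pr false (f y))) +
      fun y => (Complex.I • Complex.ofRealCLM : ℝ →L[ℝ] ℂ) (pr true (f y)) := by
    funext y
    simp only [Pi.add_apply, pr, smul_apply, Complex.ofRealCLM_apply, Complex.reCLM_apply,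
      Complex.imCLM_apply, smul_eq_mul, mul_comm Complex.I]
    exact (Complex.re_add_im (f y)).symm
  have g0 : ContDiffAt ℝ ∞ (fun y => Complex.ofRealCLM (pr false (f y))) x :=
    Complex.ofRealCLM.contDiff.contDiffAt.comp x h0
  have g1 : ContDiffAt ℝ ∞ (fun y => (Complex.I • Complex.ofRealCLM : ℝ →L[ℝ] ℂ)
      (pr true (f y))) x :=
    (Complex.I • Complex.ofRealCLM : ℝ →L[ℝ] ℂ).contDiff.contDiffAt.comp x h1
  have hle : ((l : ℕ∞) : WithTop ℕ∞) ≤ ∞ := by exact_mod_cast le_top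
  have h2 : ‖iteratedFDeriv ℝ l f x‖ ≤
      ‖iteratedFDeriv ℝ l (fun y => Complex.ofRealCLM (pr false (f y))) x‖ +
      ‖iteratedFDeriv ℝ l (fun y => (Complex.I • Complex.ofRealCLM : ℝ →L[ℝ] ℂ)
        (pr true (f y))) x‖ := by
    have h3 := iteratedFDeriv_add_apply (g0.of_le hle) (g1.of_le hle)
    rw [← e] at h3
    rw [h3]
    exact norm_add_le _ _
  rw [Fintype.sum_bool, add_comm]
  exact h2.trans (add_le_add (clm_ifd _ n0 h0 l) (clm_ifd _ n1 h1 l))

end clm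

theorem pd_clm (T : ℂ →L[ℝ] ℝ) {f : V n → ℂ} {x : V n} (hf : DifferentiableAt ℝ f x) (i : Fin n) :
    pd i (fun y => T (f y)) x = T (pd i f x) := by
  unfold pd
  have h := (T.hasFDerivAt.comp x hf.hasFDerivAt).fderiv
  have e : (fun y => T (f y)) = T ∘ f := rfl
  rw [e, h]; rfl

theorem cdo_pdc {O : Set (V n)} (hO : IsOpen O) {f : V n → ℂ} (hf : ContDiffOn ℝ ∞ f O)
    (i : Fin n) : ContDiffOn ℝ ∞ (pd i f) O :=
  (hf.fderiv_of_isOpen hO (m := ∞) (by simp)).clm_apply contDiffOn_const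

theorem da_of {O : Set (V n)} (hO : IsOpen O) {f : V n → ℂ} (hf : ContDiffOn ℝ ∞ f O) {x : V n}
    (hx : x ∈ O) : DifferentiableAt ℝ f x :=
  (hf.contDiffAt (hO.mem_nhds hx)).differentiableAt (by simp)

theorem Lv_pr {O : Set (V n)} (hO : IsOpen O) {f : V n → ℂ} (hf : ContDiffOn ℝ ∞ f O) (s : MF n)
    {x : V n} (hx : x ∈ O) (σ : Bool) : Lv s (fun y => pr σ (f y)) x =
      pr σ (∑ i, ∑ j, (s x i j : ℂ) * pd i (pd j f) x) := by
  unfold Lv
  rw [map_sum]
  refine Finset.sum_congr rfl fun i _ => ?_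
  rw [map_sum]
  refine Finset.sum_congr rfl fun j _ => ?_
  rw [pr_real]
  congr 1
  have e : pd j (fun y => pr σ (f y)) =ᶠ[𝓝 x] fun y => pr σ (pd j f y) :=
    eventuallyEq_of_mem (hO.mem_nhds hx) fun y hy => pd_clm _ (da_of hO hf hy) j
  rw [Vale.Agent.P088.HY.S3.pd_congr' e, pd_clm _ (da_of hO (cdo_pdc hO hf j) hx) i]

theorem Rv_apply (s : MF n) (b : Fin n → MC n N) (W : MC n N) (x : V n) (a c : Fin N) :
    Rv s b W x a c = ∑ i, ∑ j, (s x i j : ℂ) * pd i (pd j fun y => W y a c) x +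
      ∑ i, ∑ k, pd i (fun y => W y a k) x * b i x k c := by
  simp only [Rv, Matrix.add_apply, Matrix.sum_apply, Matrix.smul_apply, Matrix.mul_apply, pdm,
    Matrix.of_apply, smul_eq_mul]

theorem Rv_cdo {O : Set (V n)} (hO : IsOpen O) {s : MF n} {b : Fin n → MC n N}
    (hs : SmM s) (hb : ∀ i, SmC (b i)) {W : MC n N}
    (hW : ∀ a c, ContDiffOn ℝ ∞ (fun x => W x a c) O) (a c : Fin N) :
    ContDiffOn ℝ ∞ (fun x => Rv s b W x a c) O := by
  simp only [Rv_apply]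
  refine ContDiffOn.add (ContDiffOn.sum fun i _ => ContDiffOn.sum fun j _ => ?_)
    (ContDiffOn.sum fun i _ => ContDiffOn.sum fun k _ => ?_)
  · exact (Complex.ofRealCLM.contDiff.comp (hs i j)).contDiffOn.mul
      (cdo_pdc hO (cdo_pdc hO (hW a c) j) i)
  · exact (cdo_pdc hO (hW a k) i).mul (hb i k c).contDiffOn

/-- Indices of the real components. -/
abbrev Ix (N : ℕ) := Fin N × Fin N × Bool

/-- The real components. -/
def cmp (W : MC n N) (p : Ix N) (x : V n) : ℝ := pr p.2.2 (W x p.1 p.2.1)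

/-- The first order coefficients of the real system. -/
def ec (b : Fin n → MC n N) (p q : Ix N) (i : Fin n) (x : V n) : ℝ :=
  if q.1 = p.1 then cf p.2.2 q.2.2 (b i x q.2.1 p.2.1) else 0

theorem sys_cmp {O : Set (V n)} (hO : IsOpen O) (s : MF n) (b : Fin n → MC n N)
    {W : MC n N} (hW : ∀ a c, ContDiffOn ℝ ∞ (fun x => W x a c) O) {x : V n} (hx : x ∈ O)
    (p : Ix N) : Lv s (cmp W p) x + Lw (ec b) (fun _ _ _ => 0) (cmp W) p x =
      pr p.2.2 (Rv s b W x p.1 p.2.1) := by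
  obtain ⟨a, c, σ⟩ := p
  have e1 : Lv s (cmp W (a, c, σ)) x = _ := Lv_pr hO (hW a c) s hx σ
  rw [e1, Rv_apply, map_add]
  congr 1
  have e2 : ∀ q : Ix N, ∀ i, pd i (cmp W q) x = pr q.2.2 (pd i (fun y => W y q.1 q.2.1) x) :=
    fun q i => pd_clm _ (da_of hO (hW q.1 q.2.1) hx) i
  unfold Lw
  simp only [zero_mul, add_zero, e2, ec, ite_mul, zero_mul]
  rw [Fintype.sum_prod_type]
  rw [Finset.sum_eq_single a]
  · simp only [if_true]
    rw [Fintype.sum_prod_type, map_sum]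
    simp only [map_sum, pr_mul]
    have e3 : ∀ k : Fin N, ∑ τ : Bool, ∑ i : Fin n, cf σ τ (b i x k c) *
        pr τ (pd i (fun y => W y a k) x) = ∑ i : Fin n, ∑ τ : Bool, cf σ τ (b i x k c) *
        pr τ (pd i (fun y => W y a k) x) := fun k => Finset.sum_comm
    simp only [e3]
    exact Finset.sum_comm
  · intro a' _ ha'
    simp only [if_neg ha', Finset.sum_const_zero]
  · intro h
    exact absurd (Finset.mem_univ a) h

theorem nq_cmp (W : MC n N) (x : V n) : nq (W x) = ∑ p : Ix N, cmp W p x ^ 2 := by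
  rw [Fintype.sum_prod_type]
  unfold nq
  refine Finset.sum_congr rfl fun a _ => ?_
  rw [Fintype.sum_prod_type]
  refine Finset.sum_congr rfl fun c _ => ?_
  exact (pr_sq (W x a c)).symm

/-- The components are integrable when `nq` is. -/
theorem cmp_int {O : Set (V n)} (hO : IsOpen O) {W : MC n N}
    (hW : ∀ a c, ContDiffOn ℝ ∞ (fun x => W x a c) O) {wt : V n → ℝ} (hwt : ∀ x, 0 ≤ wt x)
    (hi : IntegrableOn (fun x => nq (W x) * wt x) O) (p : Ix N) :
    IntegrableOn (fun x => cmp W p x ^ 2 * wt x) O := by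
  have hc : ∀ p, ContinuousOn (cmp W p) O := fun p =>
    (pr p.2.2).continuous.comp_continuousOn (hW p.1 p.2.1).continuousOn
  have hle : ∀ x, cmp W p x ^ 2 ≤ nq (W x) := fun x => by
    rw [nq_cmp]
    exact Finset.single_le_sum (f := fun p => cmp W p x ^ 2) (fun _ _ => sq_nonneg _)
      (Finset.mem_univ p)
  have h1 : AEStronglyMeasurable (fun x => cmp W p x ^ 2) (volume.restrict O) :=
    ((hc p).pow 2).aestronglyMeasurable hO.measurableSet
  have h2 : AEStronglyMeasurable (fun x => nq (W x)) (volume.restrict O) := by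
    simp only [nq_cmp]
    exact (continuousOn_finsetSum _ fun q _ => (hc q).pow 2).aestronglyMeasurable
      hO.measurableSet
  have h3 : AEStronglyMeasurable (fun x => cmp W p x ^ 2 / nq (W x) * (nq (W x) * wt x))
      (volume.restrict O) :=
    (h1.aemeasurable.div h2.aemeasurable).aestronglyMeasurable.mul hi.aestronglyMeasurable
  have e : (fun x => cmp W p x ^ 2 / nq (W x) * (nq (W x) * wt x)) =
      fun x => cmp W p x ^ 2 * wt x := by
    funext x
    by_cases h : nq (W x) = 0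
    · have h0 : cmp W p x ^ 2 = 0 := le_antisymm ((hle x).trans h.le) (sq_nonneg _)
      rw [h, h0]; simp
    · rw [← mul_assoc, div_mul_cancel₀ _ h]
  rw [e] at h3
  refine Integrable.mono' hi h3 (ae_of_all _ fun x => ?_)
  rw [Real.norm_of_nonneg (mul_nonneg (sq_nonneg _) (hwt x))]
  exact mul_le_mul_of_nonneg_right (hle x) (hwt x)

/-- **Weighted interior estimate**, matrix form. -/
theorem wintM (n N L : ℕ) : ∃ (K : ℕ) (C ε : ℝ), 0 < C ∧ 0 < ε ∧
    ∀ (O O' : Set (V n)), IsOpen O → ∀ r : ℝ, 0 < r → r ≤ 1 →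
    (∀ x ∈ O', Metric.ball x r ⊆ O) → ∀ (s : MF n) (b : Fin n → MC n N), SmM s →
    (∀ i j, Cl K ε (fun x => s x i j - (1 : Matrix (Fin n) (Fin n) ℝ) i j)) →
    (∀ i, SmC (b i)) → (∀ i, ClC K 1 (b i)) →
    ∀ (G : V n → ℝ) (Λ : ℝ), 1 ≤ Λ →
    (∀ x ∈ O', ∀ y ∈ Metric.ball x r, |G y - G x| ≤ Λ * ‖y - x‖) →
    ∀ ρ : ℝ, 1 ≤ ρ → ∀ W F : MC n N, (∀ a c, ContDiffOn ℝ ∞ (fun x => W x a c) O) →
    (∀ x ∈ O, Rv s b W x = F x) →
    IntegrableOn (fun x => nq (W x) * Real.exp (-(2 * ρ * G x))) O → ∀ M : ℝ, 0 ≤ M →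
    (∀ a c, ∀ l ≤ K, ∀ x ∈ O, ‖iteratedFDeriv ℝ l (fun y => F y a c) x‖ ≤ M * Real.exp (ρ * G x)) →
    ∀ a c, ∀ l ≤ L, ∀ x ∈ O', ‖iteratedFDeriv ℝ l (fun y => W y a c) x‖ ≤
      C * (2 * ρ * Λ / r) ^ (L + n) *
      (√(∫ x in O, nq (W x) * Real.exp (-(2 * ρ * G x))) + M) * Real.exp (ρ * G x) := by
  obtain ⟨K, ε, hε, H0⟩ := wintS n L (Ix N)
  obtain ⟨C, hC, H⟩ := H0 1 zero_le_one
  refine ⟨K, 2 * C, ε, by positivity, hε, ?_⟩
  intro O O' hO r hr hr1 hOO s b hs hs1 hb hb1 G Λ hΛ hG ρ hρ W F hW hWF hWi M hM hF a c l hl x hx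
  have hsub : O' ⊆ O := fun x hx => hOO x hx (Metric.mem_ball_self hr)
  have hT : 1 ≤ 2 * ρ * Λ / r := by
    rw [le_div_iff₀ hr]
    have : 1 ≤ ρ * Λ := one_le_mul_of_one_le_of_one_le hρ hΛ
    nlinarith
  have hFs : ∀ a c, ContDiffOn ℝ ∞ (fun x => F x a c) O := fun a c =>
    (Rv_cdo hO hs hb hW a c).congr fun x hx => by rw [hWF x hx]
  have he : ∀ p q i, Jl O K (fun _ => 1 * (2 * ρ * Λ / r)) (ec b p q i) := by
    intro p q i
    by_cases h : q.1 = p.1
    · have e1 : ec b p q i = fun x => cf p.2.2 q.2.2 (b i x q.2.1 p.2.1) := by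
        funext x; unfold ec; rw [if_pos h]
      rw [e1]
      exact Jl_clm _ (cf_norm _ _) hO (hb i q.2.1 p.2.1).contDiffOn fun l hl x _ =>
        (hb1 i q.2.1 p.2.1 l hl x).trans (by rw [one_mul]; exact hT)
    · have e1 : ec b p q i = fun x => 0 := by
        funext x; unfold ec; rw [if_neg h]
      rw [e1]
      exact Jl.zero.mono fun _ _ => by positivity
  have hz : ∀ p q : Ix N, Jl O K (fun _ => 1 * (2 * ρ * Λ / r) ^ 2) (fun _ : V n => (0 : ℝ)) :=
    fun _ _ => Jl.zero.mono fun _ _ => by positivity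
  have key := H O O' hO r hr hr1 hOO s
    (fun i j => ⟨((hs i j).sub contDiff_const).contDiffOn, fun l hl x _ => hs1 i j l hl x⟩)
    G Λ hΛ hG ρ hρ (ec b) (fun _ _ _ => 0) he hz (cmp W) (cmp F)
    (fun p => (pr p.2.2).contDiff.comp_contDiffOn (hW p.1 p.2.1))
    (fun p x hx => by rw [sys_cmp hO s b hW hx p, hWF x hx]; rfl)
    (fun p => cmp_int hO hW (fun x => (Real.exp_pos _).le) hWi p) M
    (fun p => Jl_clm _ (pr_norm _) hO (hFs p.1 p.2.1) (hF p.1 p.2.1))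
  have hint : ∑ q : Ix N, ∫ x in O, cmp W q x ^ 2 * Real.exp (-(2 * ρ * G x)) =
      ∫ x in O, nq (W x) * Real.exp (-(2 * ρ * G x)) := by
    rw [← integral_finsetSum _ fun q _ => cmp_int hO hW (fun x => (Real.exp_pos _).le) hWi q]
    refine integral_congr_ae (ae_of_all _ fun x => ?_)
    simp only [nq_cmp, Finset.sum_mul]
  rw [hint] at key
  have h1 := ifd_le_pr ((hW a c).contDiffAt (hO.mem_nhds (hsub hx))) l
  refine h1.trans ?_
  rw [Fintype.sum_bool]
  have k1 := (key (a, c, true)).2 l hl x hx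
  have k2 := (key (a, c, false)).2 l hl x hx
  calc _ ≤ _ := add_le_add k1 k2
    _ = _ := by ring

end Vale.Agent.P088.R2.H338.I
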