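import Vale.Agent.P088.R2.H901.VecB
import Vale.Agent.P088.R2.H901.Inv
import Vale.Agent.P088.R2.H673.S3.Jl

/-!
# P088: interior estimates of all orders for systems on `V n`
-/

open MeasureTheory Set
open scoped ContDiff Matrix Topology

noncomputable section

namespace Vale.Agent.P088.R2.H338.I

open Vale.Agent.P088.LR Vale.Agent.P088.HY Vale.Agent.P088.HY.EI Vale.Agent.P088.HY.S3

variable {n : ℕ} {P : Type} [Fintype P]

/-- The lower order terms of a system. -/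
def Lw (e : P → P → Fin n → V n → ℝ) (z : P → P → V n → ℝ) (w : P → V n → ℝ) (p : P) (x : V n) :
    ℝ := ∑ q, (∑ i, e p q i x * pd i (w q) x + z p q x * w q x)

/-- Uniform interior estimate for systems. -/
theorem invS (n L : ℕ) (P : Type) [Fintype P] : ∃ (K : ℕ) (ε : ℝ), 0 < ε ∧ ∀ M₀ : ℝ, 0 ≤ M₀ →
    ∃ C : ℝ, 0 < C ∧ ∀ a : MF n,
    (∀ i j, ContDiffOn ℝ ∞ (fun x => a x i j) (Metric.ball 0 2)) →
    (∀ i j, ∀ l ≤ K, ∀ x ∈ Metric.ball (0 : V n) 2, ‖iteratedFDeriv ℝ l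
      (fun x => a x i j - (1 : Matrix (Fin n) (Fin n) ℝ) i j) x‖ ≤ ε) →
    ∀ (e : P → P → Fin n → V n → ℝ) (z : P → P → V n → ℝ),
    (∀ p q i, Jl (Metric.ball 0 2) K (fun _ => M₀) (e p q i)) →
    (∀ p q, Jl (Metric.ball 0 2) K (fun _ => M₀) (z p q)) →
    ∀ w F : P → V n → ℝ, (∀ p, ContDiffOn ℝ ∞ (w p) (Metric.ball 0 2)) →
    (∀ p, ContDiffOn ℝ ∞ (F p) (Metric.ball 0 2)) →
    (∀ p, ∀ x ∈ Metric.ball (0 : V n) 2, Lv a (w p) x + Lw e z w p x = F p x) →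
    (∀ p, IntegrableOn (fun x => w p x ^ 2) (Metric.ball 0 2)) →
    ∀ M : ℝ, (∀ p, ∀ l ≤ K, ∀ x ∈ Metric.ball (0 : V n) 2, ‖iteratedFDeriv ℝ l (F p) x‖ ≤ M) →
    ∀ p, ∀ l ≤ L, ‖iteratedFDeriv ℝ l (w p) 0‖ ≤
      C * (√(∑ q, ∫ x in Metric.ball (0 : V n) 2, w q x ^ 2) + M) := by
  refine ⟨Fintype.card (Fin n) + L + 1, 1 / (2 * Fintype.card (Fin n) + 2), eps_pos, ?_⟩
  intro M₀ hM₀
  obtain ⟨C, hC, h⟩ := corev (P := P) (volume : Measure (V n)) (Pi.basisFun ℝ (Fin n)) L M₀ hM₀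
  have hk : ∀ l : ℕ, ∃ κ : ℝ, 0 < κ ∧
    ∀ T : ContinuousMultilinearMap ℝ (fun _ : Fin l => V n) ℝ, ∀ B : ℝ, 0 ≤ B →
    (∀ v : Fin l → Fin n, |T (Pi.basisFun ℝ (Fin n) ∘ v)| ≤ B) → ‖T‖ ≤ κ * B := fun l =>
    mult_norm (Pi.basisFun ℝ (Fin n)) l
  choose κ hκ0 hκ using hk
  set Q : ℝ := ∑ l ∈ Finset.range (L + 1), κ l with hQ
  have hQ0 : 0 < Q := Finset.sum_pos (fun l _ => hκ0 l) ⟨0, by simp⟩
  refine ⟨Q * C, mul_pos hQ0 hC, ?_⟩
  intro a ha ha1 e z he hz w F hw hF hLw hwi M hM p l hl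
  have hM0 : 0 ≤ M := (norm_nonneg _).trans (hM p 0 (Nat.zero_le _) 0 (by simp))
  have hB0 : IsOpen (Metric.ball (0 : V n) 2) := Metric.isOpen_ball
  have hbd : ∀ {A : ℝ} {f : V n → ℝ}, 0 ≤ A → ContDiffOn ℝ ∞ f (Metric.ball 0 2) →
      (∀ l ≤ Fintype.card (Fin n) + L + 1, ∀ x ∈ Metric.ball (0 : V n) 2,
        ‖iteratedFDeriv ℝ l f x‖ ≤ A) →
      Bd (Pi.basisFun ℝ (Fin n)) (Fintype.card (Fin n) + L) (Metric.ball 0 2) A f := by
    intro A f hA hf h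
    have := Bd_of (b := Pi.basisFun ℝ (Fin n)) hB0 le_rfl norm_bF hA hf
      (Fintype.card (Fin n) + L) (fun l hl x hx => h l (by omega) x hx)
    rwa [one_pow, mul_one] at this
  have hSY : SY (Pi.basisFun ℝ (Fin n)) (Fintype.card (Fin n) + L) M₀ (fun i j x => a x i j)
      e z := ⟨CO_of ha ha1, fun p q i => (he p q i).1, fun p q => (hz p q).1,
    fun p q i => hbd hM₀ (he p q i).1 (he p q i).2, fun p q => hbd hM₀ (hz p q).1 (hz p q).2⟩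
  have e1 : ∀ p, ∀ x ∈ Metric.ball (0 : V n) 2, F p x = Sys (Pi.basisFun ℝ (Fin n))
      (fun i j x => a x i j) e z w p x := by
    intro p x hx
    rw [← hLw p x hx]
    simp only [Lv, Sys, Lc, Lo, Lw, D_pd]
  have hBF : ∀ p, Bd (Pi.basisFun ℝ (Fin n)) (Fintype.card (Fin n) + L) (Metric.ball 0 2) M
      (Sys (Pi.basisFun ℝ (Fin n)) (fun i j x => a x i j) e z w p) := fun p =>
    (hbd hM0 (hF p) (hM p)).congr hB0 (e1 p)
  have hS : 0 ≤ √(∑ q, ∫ x in Metric.ball (0 : V n) 2, w q x ^ 2) + M :=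
    add_nonneg (Real.sqrt_nonneg _) hM0
  have hsub : Metric.ball (0 : V n) 1 ⊆ Metric.ball 0 2 := Metric.ball_subset_ball (by norm_num)
  have hB : ∀ v : Fin l → Fin n, |iteratedFDeriv ℝ l (w p) 0 (Pi.basisFun ℝ (Fin n) ∘ v)| ≤
      C * (√(∑ q, ∫ x in Metric.ball (0 : V n) 2, w q x ^ 2) + M) := fun v =>
    h _ e z hSY w hw hwi M hM0 hBF
      (fun y => iteratedFDeriv ℝ l (w p) y (Pi.basisFun ℝ (Fin n) ∘ v))
      (cd_word (b := Pi.basisFun ℝ (Fin n)) Metric.isOpen_ball ((hw p).mono hsub) l _)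
      (((Hs_word (μ := volume) (b := Pi.basisFun ℝ (Fin n)) Metric.isOpen_ball ((hw p).mono hsub)
        l (Fintype.card (Fin n)) v).trans (Hs_le (by omega) _)).trans
        (Hs_le_Hv (Fintype.card (Fin n) + L) w p))
  have h3 := hκ l (iteratedFDeriv ℝ l (w p) 0) _ (mul_nonneg hC.le hS) hB
  have h4 : κ l ≤ Q := Finset.single_le_sum (f := κ) (fun l _ => (hκ0 l).le)
    (Finset.mem_range.2 (by omega))
  calc ‖iteratedFDeriv ℝ l (w p) 0‖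
      ≤ κ l * (C * (√(∑ q, ∫ x in Metric.ball (0 : V n) 2, w q x ^ 2) + M)) := h3
    _ ≤ Q * (C * (√(∑ q, ∫ x in Metric.ball (0 : V n) 2, w q x ^ 2) + M)) :=
        mul_le_mul_of_nonneg_right h4 (mul_nonneg hC.le hS)
    _ = _ := by ring

end Vale.Agent.P088.R2.H338.I
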