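import Vale.Agent.P088.R2.H338.I.Ws
import Vale.Agent.P088.R2.H673.S3.Sc

/-!
# P088: weighted interior estimates of all orders for systems
-/

open MeasureTheory Set Filter
open scoped ContDiff Matrix Topology

noncomputable section

namespace Vale.Agent.P088.R2.H338.I

open Vale.Agent.P088.LR Vale.Agent.P088.HY Vale.Agent.P088.HY.EI Vale.Agent.P088.HY.S3

variable {n : ℕ} {P : Type} [Fintype P]

theorem Lw_scale {O : Set (V n)} (hO : IsOpen O) {w : P → V n → ℝ}
    (hw : ∀ p, ContDiffOn ℝ ∞ (w p) O) (e : P → P → Fin n → V n → ℝ) (z : P → P → V n → ℝ)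
    (p : V n) (t : ℝ) {y : V n} (hy : p + t • y ∈ O) (a : P) :
    Lw (fun a b i y => t * e a b i (p + t • y)) (fun a b y => t ^ 2 * z a b (p + t • y))
      (fun b y => w b (p + t • y)) a y = t ^ 2 * Lw e z w a (p + t • y) := by
  unfold Lw
  rw [Finset.mul_sum]
  refine Finset.sum_congr rfl fun b _ => ?_
  rw [mul_add, Finset.mul_sum]
  refine congrArg₂ (· + ·) (Finset.sum_congr rfl fun i _ => ?_) (by ring)
  rw [pd_scale hO (hw b) p t hy i]
  ring

/-- The weighted interior estimate for systems. -/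
theorem wintS (n L : ℕ) (P : Type) [Fintype P] : ∃ (K : ℕ) (ε : ℝ), 0 < ε ∧ ∀ M₀ : ℝ, 0 ≤ M₀ →
    ∃ C : ℝ, 0 < C ∧ ∀ (O O' : Set (V n)), IsOpen O → ∀ r : ℝ, 0 < r → r ≤ 1 →
    (∀ x ∈ O', Metric.ball x r ⊆ O) → ∀ s : MF n,
    (∀ i j, Jl O K (fun _ => ε) (fun x => s x i j - (1 : Matrix (Fin n) (Fin n) ℝ) i j)) →
    ∀ (G : V n → ℝ) (Λ : ℝ), 1 ≤ Λ → (∀ x ∈ O', ∀ y ∈ Metric.ball x r, |G y - G x| ≤ Λ * ‖y - x‖) →
    ∀ ρ : ℝ, 1 ≤ ρ → ∀ (e : P → P → Fin n → V n → ℝ) (z : P → P → V n → ℝ),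
    (∀ p q i, Jl O K (fun _ => M₀ * (2 * ρ * Λ / r)) (e p q i)) →
    (∀ p q, Jl O K (fun _ => M₀ * (2 * ρ * Λ / r) ^ 2) (z p q)) →
    ∀ w F : P → V n → ℝ, (∀ p, ContDiffOn ℝ ∞ (w p) O) →
    (∀ p, ∀ x ∈ O, Lv s (w p) x + Lw e z w p x = F p x) →
    (∀ p, IntegrableOn (fun x => w p x ^ 2 * Real.exp (-(2 * ρ * G x))) O) → ∀ M : ℝ,
    (∀ p, Jl O K (fun x => M * Real.exp (ρ * G x)) (F p)) →
    ∀ p, Jl O' L (fun x => C * (2 * ρ * Λ / r) ^ (L + n) *
      (√(∑ q, ∫ x in O, w q x ^ 2 * Real.exp (-(2 * ρ * G x))) + M) * Real.exp (ρ * G x))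
      (w p) := by
  obtain ⟨K, ε, hε, H0⟩ := invS n L P
  refine ⟨K, ε, hε, fun M₀ hM₀ => ?_⟩
  obtain ⟨C, hC, H⟩ := H0 M₀ hM₀
  refine ⟨3 * C, by positivity, ?_⟩
  intro O O' hO r hr hr1 hOO s hs G Λ hΛ hG ρ hρ e z he hz w F hw hLw hwi M hF a
  have hsub : O' ⊆ O := fun x hx => hOO x hx (Metric.mem_ball_self hr)
  refine ⟨(hw a).mono hsub, fun l hl p hp => ?_⟩
  set t : ℝ := r / (2 * ρ * Λ) with ht
  have hρ0 : 0 < ρ := by linarith
  have hΛ0 : 0 < Λ := by linarith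
  have ht0 : 0 < t := by positivity
  have hTe : t⁻¹ = 2 * ρ * Λ / r := by rw [ht, inv_div]
  have hρΛ : 1 ≤ ρ * Λ := one_le_mul_of_one_le_of_one_le hρ hΛ
  have h2t : 2 * t ≤ r := by
    rw [ht, show 2 * (r / (2 * ρ * Λ)) = r / (ρ * Λ) by field_simp]
    exact div_le_self hr.le hρΛ
  have ht1 : t ≤ 1 := by linarith
  have hball : Metric.ball p (2 * t) ⊆ O := (Metric.ball_subset_ball h2t).trans (hOO p hp)
  have hexp : ∀ y ∈ Metric.ball p (2 * t), |ρ * G y - ρ * G p| ≤ 1 := by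
    intro y hy
    have h1 := hG p hp y (Metric.ball_subset_ball h2t hy)
    rw [mem_ball_iff_norm] at hy
    rw [← mul_sub, abs_mul, abs_of_pos hρ0]
    calc ρ * |G y - G p| ≤ ρ * (Λ * (2 * t)) := by
          apply mul_le_mul_of_nonneg_left _ hρ0.le
          exact h1.trans (mul_le_mul_of_nonneg_left hy.le hΛ0.le)
      _ = r := by rw [ht]; field_simp
      _ ≤ 1 := hr1
  have hmem : ∀ y ∈ Metric.ball (0 : V n) 2, p + t • y ∈ O := fun y hy =>
    hball ((mem_scale ht0).2 hy)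
  set I : P → ℝ := fun q => ∫ x in O, w q x ^ 2 * Real.exp (-(2 * ρ * G x)) with hI'
  have hI0 : ∀ q, 0 ≤ I q := fun q => integral_nonneg fun x => by positivity
  have hIs : 0 ≤ ∑ q, I q := Finset.sum_nonneg fun q _ => hI0 q
  have hM0 : 0 ≤ M := by
    have := ((hF a).nonneg (hsub hp))
    exact le_of_mul_le_mul_right (by simpa using this) (Real.exp_pos (ρ * G p))
  -- the integral of `w²`
  have hw2 : ∀ q, IntegrableOn (fun x => w q x ^ 2) (Metric.ball p (2 * t)) := by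
    intro q
    have h1 : IntegrableOn (fun x => Real.exp (2 * ρ * G p + 2) *
        (w q x ^ 2 * Real.exp (-(2 * ρ * G x)))) (Metric.ball p (2 * t)) :=
      ((hwi q).mono_set hball).const_mul _
    refine Integrable.mono' h1 ((((hw q).continuousOn).mono hball).pow 2 |>.aestronglyMeasurable
      Metric.isOpen_ball.measurableSet) ?_
    refine (ae_restrict_iff' Metric.isOpen_ball.measurableSet).2 (ae_of_all _ fun x hx => ?_)
    have h2 := abs_le.1 (hexp x hx)
    rw [Real.norm_eq_abs, abs_of_nonneg (sq_nonneg _)]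
    calc w q x ^ 2 = w q x ^ 2 * Real.exp 0 := by rw [Real.exp_zero, mul_one]
      _ ≤ w q x ^ 2 * Real.exp ((2 * ρ * G p + 2) + -(2 * ρ * G x)) :=
          mul_le_mul_of_nonneg_left (Real.exp_le_exp.2 (by nlinarith [h2.2])) (sq_nonneg _)
      _ = _ := by rw [Real.exp_add]; ring
  have hw3 : ∀ q, ∫ x in Metric.ball p (2 * t), w q x ^ 2 ≤
      Real.exp (2 * ρ * G p + 2) * I q := by
    intro q
    have h1 : ∫ x in Metric.ball p (2 * t), w q x ^ 2 ≤
        ∫ x in Metric.ball p (2 * t), Real.exp (2 * ρ * G p + 2) *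
        (w q x ^ 2 * Real.exp (-(2 * ρ * G x))) := by
      refine setIntegral_mono_on (hw2 q) (((hwi q).mono_set hball).const_mul _)
        Metric.isOpen_ball.measurableSet fun x hx => ?_
      have h2 := abs_le.1 (hexp x hx)
      calc w q x ^ 2 = w q x ^ 2 * Real.exp 0 := by rw [Real.exp_zero, mul_one]
        _ ≤ w q x ^ 2 * Real.exp ((2 * ρ * G p + 2) + -(2 * ρ * G x)) :=
            mul_le_mul_of_nonneg_left (Real.exp_le_exp.2 (by nlinarith [h2.2])) (sq_nonneg _)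
        _ = _ := by rw [Real.exp_add]; ring
    refine h1.trans ?_
    rw [integral_const_mul]
    refine mul_le_mul_of_nonneg_left ?_ (Real.exp_pos _).le
    exact setIntegral_mono_set (hwi q) (ae_of_all _ fun x => by positivity)
      (ae_of_all _ hball)
  -- apply the interior estimate
  have hcomp : ∀ {f : V n → ℝ}, ContDiffOn ℝ ∞ f O →
      ContDiffOn ℝ ∞ (fun y => f (p + t • y)) (Metric.ball 0 2) := fun hf =>
    hf.comp (ContDiff.contDiffOn (by fun_prop)) hmem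
  have hsm : ∀ i j, ContDiffOn ℝ ∞ (fun x => s x i j) O := fun i j => by
    have := (hs i j).1.add (contDiffOn_const (c := (1 : Matrix (Fin n) (Fin n) ℝ) i j))
    refine this.congr fun x _ => by ring
  -- a scaled function
  have hsc : ∀ {f : V n → ℝ} {A B : ℝ} (c : ℝ), 0 ≤ c → Jl O K (fun _ => A) f → c * A ≤ B →
      Jl (Metric.ball 0 2) K (fun _ => B) (fun y => c * f (p + t • y)) := by
    intro f A B c hc hf hB
    have h0 := Jl.const_mul hO c hf
    refine ⟨contDiffOn_const.mul (hcomp hf.1), fun m hm x hx => ?_⟩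
    have h1 := norm_ifd_scale hO h0.1 p ht0.le (hmem x hx) m
    refine h1.trans ?_
    have h2 := h0.2 m hm _ (hmem x hx)
    calc t ^ m * ‖iteratedFDeriv ℝ m (fun x => c * f x) (p + t • x)‖ ≤ 1 * (|c| * A) :=
            mul_le_mul (pow_le_one₀ ht0.le ht1) h2 (norm_nonneg _) zero_le_one
      _ ≤ B := by rw [one_mul, abs_of_nonneg hc]; exact hB
  have het : ∀ a b i, Jl (Metric.ball 0 2) K (fun _ => M₀) (fun y => t * e a b i (p + t • y)) :=
    fun a b i => hsc t ht0.le (he a b i) (by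
      rw [← hTe]
      rw [show t * (M₀ * t⁻¹) = M₀ * (t * t⁻¹) by ring, mul_inv_cancel₀ ht0.ne', mul_one])
  have hzt : ∀ a b, Jl (Metric.ball 0 2) K (fun _ => M₀) (fun y => t ^ 2 * z a b (p + t • y)) :=
    fun a b => hsc (t ^ 2) (by positivity) (hz a b) (by
      rw [← hTe]
      rw [show t ^ 2 * (M₀ * t⁻¹ ^ 2) = M₀ * (t * t⁻¹) ^ 2 by ring, mul_inv_cancel₀ ht0.ne',
        one_pow, mul_one])
  have key := H (fun y => s (p + t • y)) (fun i j => hcomp (hsm i j)) (fun i j m hm x hx => by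
      have h1 := norm_ifd_scale hO (hs i j).1 p ht0.le (hmem x hx) m
      refine h1.trans ?_
      have h2 := (hs i j).2 m hm _ (hmem x hx)
      calc t ^ m * ‖iteratedFDeriv ℝ m (fun x => s x i j - (1 : Matrix (Fin n) (Fin n) ℝ) i j)
            (p + t • x)‖ ≤ 1 * ε :=
            mul_le_mul (pow_le_one₀ ht0.le ht1) h2 (norm_nonneg _) zero_le_one
        _ = ε := one_mul _)
    (fun a b i y => t * e a b i (p + t • y)) (fun a b y => t ^ 2 * z a b (p + t • y)) het hzt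
    (fun a y => w a (p + t • y)) (fun a y => t ^ 2 * F a (p + t • y)) (fun a => hcomp (hw a))
    (fun a => contDiffOn_const.mul (hcomp (hF a).1))
    (fun a y hy => by
      rw [Lv_scale hO (hw a) s p t (hmem y hy), Lw_scale hO hw e z p t (hmem y hy), ← mul_add,
        hLw a _ (hmem y hy)])
    (fun a => (int_scale ht0 (hw2 a)).1)
    (Real.exp 1 * (M * Real.exp (ρ * G p))) (fun a m hm x hx => by
      have h0 := hmem x hx
      have h1 := norm_ifd_scale hO (contDiffOn_const.mul (hF a).1 :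
        ContDiffOn ℝ ∞ (fun x => t ^ 2 * F a x) O) p ht0.le h0 m
      refine h1.trans ?_
      have h2 := (Jl.const_mul hO (t ^ 2) (hF a)).2 m hm _ h0
      have h3 := (abs_le.1 (hexp _ ((mem_scale ht0).2 hx))).2
      have h4 : Real.exp (ρ * G (p + t • x)) ≤ Real.exp 1 * Real.exp (ρ * G p) := by
        rw [← Real.exp_add]; exact Real.exp_le_exp.2 (by linarith)
      calc t ^ m * ‖iteratedFDeriv ℝ m (fun x => t ^ 2 * F a x) (p + t • x)‖
          ≤ 1 * (|t ^ 2| * (M * Real.exp (ρ * G (p + t • x)))) :=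
            mul_le_mul (pow_le_one₀ ht0.le ht1) h2 (norm_nonneg _) zero_le_one
        _ ≤ 1 * (1 * (M * (Real.exp 1 * Real.exp (ρ * G p)))) := by
            rw [one_mul, one_mul]
            refine mul_le_mul ?_ (mul_le_mul_of_nonneg_left h4 hM0) (by positivity) zero_le_one
            rw [abs_of_nonneg (by positivity)]
            exact pow_le_one₀ ht0.le ht1
        _ = _ := by ring) a l hl
  -- back to `w`
  have hB : IsOpen (Metric.ball (0 : V n) 2) := Metric.isOpen_ball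
  have h5 := norm_ifd_scale hB (hcomp (hw a)) (-(t⁻¹ • p)) (t := t⁻¹) (inv_nonneg.2 ht0.le) (y := p)
    (by simp) l
  have e3 : (fun y => (fun y => w a (p + t • y)) (-(t⁻¹ • p) + t⁻¹ • y)) = w a := by
    funext y
    simp only [smul_add, smul_neg, smul_smul, mul_inv_cancel₀ ht0.ne', one_smul]
    congr 1; abel
  have e4 : -(t⁻¹ • p) + t⁻¹ • p = (0 : V n) := by abel
  rw [e4] at h5
  simp only [e3] at h5
  have hT : 1 ≤ t⁻¹ := (one_le_inv₀ ht0).2 ht1
  have hint : √(∑ q, ∫ y in Metric.ball (0 : V n) 2, w q (p + t • y) ^ 2) ≤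
      t⁻¹ ^ n * (Real.exp 1 * Real.exp (ρ * G p) * √(∑ q, I q)) := by
    have h6 : ∑ q, ∫ y in Metric.ball (0 : V n) 2, w q (p + t • y) ^ 2 ≤
        (t⁻¹ ^ n * (Real.exp 1 * Real.exp (ρ * G p) * √(∑ q, I q))) ^ 2 := by
      have h7 : (t ^ n)⁻¹ ≤ (t⁻¹ ^ n) ^ 2 := by
        rw [← inv_pow]
        have : 1 ≤ t⁻¹ ^ n := one_le_pow₀ hT
        nlinarith
      have h8 : Real.exp (2 * ρ * G p + 2) * ∑ q, I q =
          (Real.exp 1 * Real.exp (ρ * G p) * √(∑ q, I q)) ^ 2 := by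
        rw [mul_pow, mul_pow, Real.sq_sqrt hIs, ← Real.exp_nat_mul, ← Real.exp_nat_mul,
          ← Real.exp_add]
        congr 2; push_cast; ring
      calc ∑ q, ∫ y in Metric.ball (0 : V n) 2, w q (p + t • y) ^ 2
          = ∑ q, (t ^ n)⁻¹ * ∫ x in Metric.ball p (2 * t), w q x ^ 2 :=
            Finset.sum_congr rfl fun q _ => (int_scale ht0 (hw2 q)).2
        _ ≤ ∑ q, (t⁻¹ ^ n) ^ 2 * (Real.exp (2 * ρ * G p + 2) * I q) :=
            Finset.sum_le_sum fun q _ =>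
              mul_le_mul h7 (hw3 q) (integral_nonneg fun x => sq_nonneg _) (by positivity)
        _ = (t⁻¹ ^ n) ^ 2 * (Real.exp (2 * ρ * G p + 2) * ∑ q, I q) := by
            rw [← Finset.mul_sum, ← Finset.mul_sum]
        _ = _ := by rw [h8]; ring
    exact (Real.sqrt_le_sqrt h6).trans (by rw [Real.sqrt_sq (by positivity)])
  have he3 : Real.exp 1 ≤ 3 := by
    have := Real.exp_one_lt_d9; linarith
  have hTn : 1 ≤ t⁻¹ ^ n := one_le_pow₀ hT
  calc ‖iteratedFDeriv ℝ l (w a) p‖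
      ≤ t⁻¹ ^ l * ‖iteratedFDeriv ℝ l (fun y => w a (p + t • y)) 0‖ := h5
    _ ≤ t⁻¹ ^ L * (C * (√(∑ q, ∫ y in Metric.ball (0 : V n) 2, w q (p + t • y) ^ 2) +
          Real.exp 1 * (M * Real.exp (ρ * G p)))) :=
        mul_le_mul (pow_le_pow_right₀ hT hl) key (norm_nonneg _) (by positivity)
    _ ≤ t⁻¹ ^ L * (C * (t⁻¹ ^ n * (Real.exp 1 * Real.exp (ρ * G p) * √(∑ q, I q)) +
          t⁻¹ ^ n * (Real.exp 1 * (M * Real.exp (ρ * G p))))) := by
        refine mul_le_mul_of_nonneg_left (mul_le_mul_of_nonneg_left (add_le_add hint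
          (le_mul_of_one_le_left (by positivity) hTn)) hC.le) (by positivity)
    _ = (Real.exp 1 * C) * t⁻¹ ^ (L + n) * (√(∑ q, I q) + M) * Real.exp (ρ * G p) := by
        rw [pow_add]; ring
    _ ≤ (3 * C) * t⁻¹ ^ (L + n) * (√(∑ q, I q) + M) * Real.exp (ρ * G p) := by
        gcongr
    _ = _ := by rw [hTe]

end Vale.Agent.P088.R2.H338.I
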